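import Vale.Agent.P074.Final

namespace Vale.Agent.Results.P074.Exponent

/-- For every `d ≥ 2` the largest admissible exponent is `1/3`: an exponent `α ∈ (0,1]` is
admissible exactly when `α ≤ 1/3`, the supremum of the admissible exponents equals `1/3` and is
attained, and the exponent `1/2` is not admissible. -/
theorem result : ∀ d : ℕ, 2 ≤ d →
    (∀ α : ℝ, 0 < α → α ≤ 1 → (_root_.P074.Admissible d α ↔ α ≤ 1 / 3)) ∧
    IsGreatest {α : ℝ | 0 < α ∧ α ≤ 1 ∧ _root_.P074.Admissible d α} (1 / 3) ∧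
    sSup {α : ℝ | 0 < α ∧ α ≤ 1 ∧ _root_.P074.Admissible d α} = 1 / 3 ∧
    ¬ _root_.P074.Admissible d (1 / 2) :=
  fun d hd => ⟨fun α h0 h1 => _root_.P074.admissible_iff d hd α h0 h1,
    _root_.P074.greatest d hd, (_root_.P074.greatest d hd).csSup_eq,
    _root_.P074.not_admissible d hd (1 / 2) (by norm_num)⟩

end Vale.Agent.Results.P074.Exponent
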