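import Vale.Agent.P074.Example

namespace Vale.Agent.Results.P074.UpperThird

/-- In every dimension `d ≥ 2` no exponent `α > 1/3` is admissible; in particular the exponent
`1/2` is not admissible. -/
theorem result : ∀ d : ℕ, 2 ≤ d →
    (∀ α : ℝ, 1 / 3 < α → ¬ _root_.P074.Admissible d α) ∧ ¬ _root_.P074.Admissible d (1 / 2) :=
  fun d hd => ⟨fun α hα => _root_.P074.not_admissible d hd α hα,
    _root_.P074.not_admissible d hd (1 / 2) (by norm_num)⟩

end Vale.Agent.Results.P074.UpperThird
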